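import Vale.Agent.P037.Defs
import Vale.Agent.P037.Main

namespace Vale.Agent.Results.P037.Disproof

open Vale.Agent.P037

/-- The polynomial ordered binary matrix-removal conjecture is false. -/
theorem result :
    ¬ ∀ k : ℕ, 1 ≤ k → ∀ H : BinMat k, ∃ cH CH : ℝ, 0 < cH ∧ 0 < CH ∧
      ∀ n : ℕ, 1 ≤ n → ∀ ε : ℝ, 0 < ε → ε < 1 → ∀ A : BinMat n, ε ≤ distFree H A →
        cH * ε ^ CH * (n : ℝ) ^ (2 * k) ≤ (numCopies H A : ℝ) :=
  fun h => not_poly (k := 35) le_rfl (h 35 (by norm_num) 1)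

end Vale.Agent.Results.P037.Disproof
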