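import Vale.Agent.P037.Defs
import Vale.Agent.P037.Main

namespace Vale.Agent.Results.P037.ExpIdentity

open Vale.Agent.P037

/-- For every `k ≥ 35` the identity matrix `I_k` violates the polynomial removal bound, and the
copy density can be as small as `exp (-a / √ε)`, for arbitrarily large `n`. -/
theorem result (k : ℕ) (hk : 35 ≤ k) :
    (¬ ∃ cH CH : ℝ, 0 < cH ∧ 0 < CH ∧
      ∀ n : ℕ, 1 ≤ n → ∀ ε : ℝ, 0 < ε → ε < 1 → ∀ A : BinMat n,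
        ε ≤ distFree (1 : BinMat k) A →
          cH * ε ^ CH * (n : ℝ) ^ (2 * k) ≤ (numCopies (1 : BinMat k) A : ℝ)) ∧
    ∃ a ε₀ : ℝ, 0 < a ∧ 0 < ε₀ ∧ ∀ ε : ℝ, 0 < ε → ε < ε₀ → ∀ n₀ : ℕ, ∃ n : ℕ, n₀ ≤ n ∧
      ∃ A : BinMat n, ε ≤ distFree (1 : BinMat k) A ∧
        (numCopies (1 : BinMat k) A : ℝ) ≤ Real.exp (-a / Real.sqrt ε) * (n : ℝ) ^ (2 * k) :=
  ⟨not_poly hk, exp_bound hk⟩

end Vale.Agent.Results.P037.ExpIdentity
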